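import Vale.Agent.H20.P309.Final

open MeasureTheory ProbabilityTheory
open scoped RealInnerProductSpace ENNReal

namespace Vale.Agent.Results.P309.MemoryLower

open MemLearner

theorem result : ∀ B : ℝ, 0 < B → ∃ c' : ℝ, 0 < c' ∧ ∃ ε₀ : ℝ, 0 < ε₀ ∧
    ∀ d : ℕ, 100 ≤ d → ∀ ε : ℝ, 0 < ε → ε < ε₀ → ∀ M : ℝ, M ≤ B * d ^ 2 →
    ∀ N T : ℕ, (N : ℝ) ≤ 2 ^ M → ∀ L : Learner d N,
    ENNReal.ofReal (2 / 3) ≤ L.success T ε → c' * d * Real.log (1 / ε) ≤ T :=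
  _root_.P309.final_bound

end Vale.Agent.Results.P309.MemoryLower
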