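import Vale.Agent.H20.P309.Upper

open MeasureTheory ProbabilityTheory
open scoped RealInnerProductSpace ENNReal

namespace Vale.Agent.Results.P309.MemoryTradeoff

open MemLearner

theorem result :
    (∀ B : ℝ, 0 < B → ∃ c' : ℝ, 0 < c' ∧ ∃ ε₀ : ℝ, 0 < ε₀ ∧
      ∀ d : ℕ, 100 ≤ d → ∀ ε : ℝ, 0 < ε → ε < ε₀ → ∀ M : ℝ, M ≤ B * d ^ 2 →
      ∀ N T : ℕ, (N : ℝ) ≤ 2 ^ M → ∀ L : Learner d N,
      ENNReal.ofReal (2 / 3) ≤ L.success T ε → c' * d * Real.log (1 / ε) ≤ T) ∧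
    (∃ C : ℝ, 0 < C ∧ ∀ d : ℕ, 2 ≤ d → ∀ ε : ℝ, 0 < ε → ε ≤ 1 / 2 →
      ∀ M : ℝ, d * Real.logb 2 (1 / ε) + C * d * Real.log d ≤ M →
      ∃ N T : ℕ, (N : ℝ) ≤ 2 ^ M ∧ (T : ℝ) ≤ C * d * Real.log (1 / ε) ∧
      ∃ L : Learner d N, (∀ t t', L.out t = L.out t') ∧
        ENNReal.ofReal (2 / 3) ≤ L.success T ε) ∧
    (∀ d N T : ℕ, 2 ≤ d → ∀ M : ℝ, (N : ℝ) ≤ 2 ^ M → ∀ L : Learner d N,
      (∀ t t', L.out t = L.out t') → ∀ ε : ℝ, 0 < ε →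
      ENNReal.ofReal (2 / 3) ≤ L.success T ε →
      (d - 1) * Real.logb 2 (1 / ε) - 6 * d ≤ M) :=
  ⟨_root_.P309.final_bound, _root_.P309.upper_bound,
    fun d N T hd M hN L hL ε hε hs => _root_.P309.memory_needed d N T hd M hN L hL ε hε hs⟩

end Vale.Agent.Results.P309.MemoryTradeoff
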